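import Vale.Agent.P062.Sym

namespace Vale.Agent.P062

/-- decoding of cells (row length 32) -/
def dec (c : ℕ) : Cell := (((c % 32 : ℕ) : ℤ), ((c / 32 : ℕ) : ℤ))

theorem dec_inj {a b : ℕ} (h : dec a = dec b) : a = b := by
  simp only [dec, Prod.mk.injEq] at h
  omega

structure Fct where
  need : List ℕ
  sup : List ℕ

def Fct.Valid (f : Fct) : Prop :=
  Win (fun c => ∃ k ∈ f.need, dec k = c) (fun c => ∃ k ∈ f.sup, dec k = c)

/-- coordinate after flip and shift -/
def co (fl : Bool) (d a : ℕ) : ℕ := cond fl (d - a) (d + a)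

def cook (fl : Bool) (d a : ℕ) : Bool := cond fl (Nat.ble a d) true

def img (sw fx fy : Bool) (dx dy c : ℕ) : ℕ :=
  co fx dx (cond sw (c / 32) (c % 32)) + 32 * co fy dy (cond sw (c % 32) (c / 32))

def imgok (sw fx fy : Bool) (dx dy c : ℕ) : Bool :=
  (cook fx dx (cond sw (c / 32) (c % 32)) && Nat.ble (co fx dx (cond sw (c / 32) (c % 32))) 31) &&
    cook fy dy (cond sw (c % 32) (c / 32))

def sg (b : Bool) : ℤ := cond b (-1) 1

theorem co_cast {fl : Bool} {d a : ℕ} (h : cook fl d a = true) :
    ((co fl d a : ℕ) : ℤ) = d + sg fl * a := by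
  cases fl
  · simp [co, sg]
  · simp only [cook, cond_true, Nat.ble_eq] at h
    simp only [co, sg, cond_true]
    omega

theorem dec_img {sw fx fy : Bool} {dx dy c : ℕ} (h : imgok sw fx fy dx dy c = true) :
    dec (img sw fx fy dx dy c) = gmap sw (sg fx) (sg fy) ((dx : ℤ), (dy : ℤ)) (dec c) := by
  simp only [imgok, Bool.and_eq_true, Nat.ble_eq] at h
  obtain ⟨⟨h1, h2⟩, h3⟩ := h
  have e1 := co_cast h1
  have e3 := co_cast h3
  have hm : (co fx dx (cond sw (c / 32) (c % 32)) +
      32 * co fy dy (cond sw (c % 32) (c / 32))) % 32 = co fx dx (cond sw (c / 32) (c % 32)) := by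
    omega
  have hd : (co fx dx (cond sw (c / 32) (c % 32)) +
      32 * co fy dy (cond sw (c % 32) (c / 32))) / 32 = co fy dy (cond sw (c % 32) (c / 32)) := by
    omega
  simp only [dec, img, hm, hd, e1, e3]
  cases sw <;> simp [gmap]

theorem good_g (sw fx fy : Bool) (d : Cell) : Good (gmap sw (sg fx) (sg fy) d) :=
  ⟨sw, sg fx, sg fy, d, by cases fx <;> simp [sg], by cases fy <;> simp [sg], rfl⟩

/-- bit mask of a list of codes -/
def mask (l : List ℕ) : ℕ := l.foldr (fun c acc => Nat.lor (Nat.shiftLeft 1 c) acc) 0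

theorem mask_testBit (l : List ℕ) (k : ℕ) : (mask l).testBit k = true ↔ k ∈ l := by
  induction l with
  | nil => simp [mask]
  | cons a l ih =>
    have : mask (a :: l) = (1 <<< a) ||| mask l := rfl
    rw [this, Nat.testBit_or, Bool.or_eq_true, ih, List.mem_cons, Nat.testBit_shiftLeft]
    constructor
    · rintro (h | h)
      · left
        simp only [ge_iff_le, Bool.and_eq_true, decide_eq_true_eq] at h
        obtain ⟨h1, h2⟩ := h
        have : k - a = 0 := by
          by_contra hne
          obtain ⟨n, hn⟩ := Nat.exists_eq_succ_of_ne_zero hne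
          rw [hn, Nat.testBit_succ] at h2
          simp at h2
        omega
      · right; exact h
    · rintro (rfl | h)
      · left; simp
      · right; exact h

structure Ref where
  f : ℕ
  sw : Bool
  fx : Bool
  fy : Bool
  dx : ℕ
  dy : ℕ

def imask (r : Ref) (l : List ℕ) : ℕ :=
  l.foldr (fun c acc => Nat.lor (Nat.shiftLeft 1 (img r.sw r.fx r.fy r.dx r.dy c)) acc) 0

theorem imask_eq (r : Ref) (l : List ℕ) :
    imask r l = mask (l.map (img r.sw r.fx r.fy r.dx r.dy)) := by
  induction l with
  | nil => rfl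
  | cons a l ih =>
    show Nat.lor _ (imask r l) = Nat.lor _ (mask _)
    rw [ih]

def iok (r : Ref) (l : List ℕ) : Bool := l.all (fun c => imgok r.sw r.fx r.fy r.dx r.dy c)

/-- `a` is a submask of `b` -/
def sub (a b : ℕ) : Bool := Nat.beq (Nat.land a b) a

theorem sub_testBit {a b : ℕ} (h : sub a b = true) {k : ℕ} (hk : a.testBit k = true) :
    b.testBit k = true := by
  have h' : a &&& b = a := Nat.eq_of_beq_eq_true h
  rw [← h', Nat.testBit_and, Bool.and_eq_true] at hk
  exact hk.2

/-- all facts returned by `G` are valid -/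
def GOk (G : ℕ → Option Fct) : Prop := ∀ k f, G k = some f → f.Valid

/-- check all references; `N` mask of Maker's cells after the move, `S` mask of the remaining
free cells, `inter` the intersection so far -/
def chkRefs (G : ℕ → Option Fct) (N S : ℕ) : List Ref → ℕ → Bool
  | [], inter => Nat.beq inter 0
  | r :: rs, inter =>
    match G r.f with
    | none => false
    | some g =>
      (iok r g.need && sub (imask r g.need) N) &&
        ((iok r g.sup && sub (imask r g.sup) S) &&
          chkRefs G N S rs (Nat.land inter (imask r g.sup)))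

def isCons : List Ref → Bool
  | [] => false
  | _ :: _ => true

/-- check of a node -/
def chkNode (G : ℕ → Option Fct) (need sup : List ℕ) (m : ℕ) (refs : List Ref) : Bool :=
  (Nat.testBit (mask sup) m && isCons refs) &&
    chkRefs G (Nat.lor (Nat.shiftLeft 1 m) (mask need)) (Nat.xor (mask sup) (Nat.shiftLeft 1 m))
      refs (Nat.xor (mask sup) (Nat.shiftLeft 1 m))

def snakyCodes : List ℕ := [0, 1, 2, 3, 35, 36]

def chkLeaf (need : List ℕ) (m : ℕ) (r : Ref) : Bool :=
  iok r snakyCodes && sub (imask r snakyCodes) (Nat.lor (Nat.shiftLeft 1 m) (mask need))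

theorem iok_mem {r : Ref} {l : List ℕ} (h : iok r l = true) {c : ℕ} (hc : c ∈ l) :
    imgok r.sw r.fx r.fy r.dx r.dy c = true := by
  simp only [iok, List.all_eq_true] at h
  exact h c hc

theorem imask_testBit {r : Ref} {l : List ℕ} {c : ℕ} (hc : c ∈ l) :
    (imask r l).testBit (img r.sw r.fx r.fy r.dx r.dy c) = true := by
  rw [imask_eq, mask_testBit]
  exact List.mem_map_of_mem hc

def Ref.g (r : Ref) : Cell → Cell := gmap r.sw (sg r.fx) (sg r.fy) ((r.dx : ℤ), (r.dy : ℤ))

theorem one_shiftLeft_testBit (m k : ℕ) : (Nat.shiftLeft 1 m).testBit k = true ↔ k = m := by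
  have : Nat.shiftLeft 1 m = mask [m] := by
    simp only [mask, List.foldr]
    exact (Nat.or_zero _).symm
  rw [this, mask_testBit, List.mem_singleton]

theorem chkLeaf_sound {need : List ℕ} {m : ℕ} {r : Ref} (h : chkLeaf need m r = true) :
    Fct.Valid ⟨need, [m]⟩ := by
  simp only [chkLeaf, Bool.and_eq_true] at h
  obtain ⟨h1, h2⟩ := h
  intro M B hM hB
  have hm : dec m ∉ M ∪ B := by
    have := hB (dec m) ⟨m, by simp, rfl⟩
    rw [Finset.mem_union]
    tauto
  refine MakerWins.complete M B (dec m) hm (snaky.image r.g) ?_ ?_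
  · refine (good_g r.sw r.fx r.fy _).copy ?_
    refine ⟨id, ⟨1, 1, Or.inl rfl, Or.inl rfl, Or.inl fun c => by simp⟩, (0, 0), ?_⟩
    have : (fun c : Cell => ((0, 0) : Cell) + id c) = id := by funext c; ext <;> simp
    rw [this, Finset.image_id]
  · intro c hc
    rw [Finset.mem_image] at hc
    obtain ⟨c', hc', rfl⟩ := hc
    have hex : ∃ k ∈ snakyCodes, dec k = c' := by
      simp only [snaky, Finset.mem_insert, Finset.mem_singleton] at hc'
      rcases hc' with rfl | rfl | rfl | rfl | rfl | rfl
      · exact ⟨0, by simp [snakyCodes], rfl⟩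
      · exact ⟨1, by simp [snakyCodes], rfl⟩
      · exact ⟨2, by simp [snakyCodes], rfl⟩
      · exact ⟨3, by simp [snakyCodes], rfl⟩
      · exact ⟨35, by simp [snakyCodes], rfl⟩
      · exact ⟨36, by simp [snakyCodes], rfl⟩
    obtain ⟨k, hk, rfl⟩ := hex
    have e := dec_img (iok_mem h1 hk)
    have hb := sub_testBit h2 (imask_testBit (r := r) hk)
    rw [show r.g (dec k) = dec (img r.sw r.fx r.fy r.dx r.dy k) from e.symm]
    have hb' : ((Nat.shiftLeft 1 m) ||| mask need).testBit
        (img r.sw r.fx r.fy r.dx r.dy k) = true := hb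
    rw [Nat.testBit_or, Bool.or_eq_true, one_shiftLeft_testBit, mask_testBit] at hb'
    rw [Finset.mem_insert]
    rcases hb' with hb' | hb'
    · left; rw [hb']
    · right; exact hM _ ⟨_, hb', rfl⟩

theorem isCons_exists {rs : List Ref} (h : isCons rs = true) : ∃ r, r ∈ rs := by
  cases rs with
  | nil => simp [isCons] at h
  | cons r rs => exact ⟨r, List.mem_cons_self⟩

/-- what a successful reference check gives -/
theorem chkRefs_soundV {V : Fct → Prop} {G : ℕ → Option Fct} (hT : ∀ k f, G k = some f → V f)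
    {N S : ℕ} :
    ∀ (refs : List Ref) (inter : ℕ), chkRefs G N S refs inter = true →
      (∀ r ∈ refs, ∃ g : Fct, V g ∧ iok r g.need = true ∧ sub (imask r g.need) N = true ∧
        iok r g.sup = true ∧ sub (imask r g.sup) S = true) ∧
      ∀ k, inter.testBit k = true → ∃ r ∈ refs, ∃ g : Fct, V g ∧ iok r g.need = true ∧
        sub (imask r g.need) N = true ∧ iok r g.sup = true ∧ sub (imask r g.sup) S = true ∧
        (imask r g.sup).testBit k = false := by
  intro refs
  induction refs with
  | nil =>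
    intro inter h
    have : inter = 0 := Nat.eq_of_beq_eq_true h
    subst this
    refine ⟨by simp, fun k hk => ?_⟩
    simp at hk
  | cons r rs ih =>
    intro inter h
    simp only [chkRefs] at h
    cases hg : G r.f with
    | none => rw [hg] at h; simp at h
    | some g =>
      rw [hg] at h
      simp only [Bool.and_eq_true] at h
      obtain ⟨⟨h1, h2⟩, ⟨h3, h4⟩, h5⟩ := h
      obtain ⟨ih1, ih2⟩ := ih _ h5
      have hv := hT _ _ hg
      refine ⟨?_, ?_⟩
      · intro r' hr'
        rcases List.mem_cons.1 hr' with rfl | hr'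
        · exact ⟨g, hv, h1, h2, h3, h4⟩
        · exact ih1 r' hr'
      · intro k hk
        by_cases hb : (imask r g.sup).testBit k = true
        · have : (inter &&& (imask r g.sup)).testBit k = true := by
            rw [Nat.testBit_and, hk, hb]; rfl
          obtain ⟨r', hr', rest⟩ := ih2 k this
          exact ⟨r', List.mem_cons_of_mem _ hr', rest⟩
        · refine ⟨r, List.mem_cons_self, g, hv, h1, h2, h3, h4, ?_⟩
          simpa using hb

theorem chkNode_sound {G : ℕ → Option Fct} (hT : GOk G) {need sup : List ℕ} {m : ℕ} {refs : List Ref}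
    (h : chkNode G need sup m refs = true) : Fct.Valid ⟨need, sup⟩ := by
  simp only [chkNode, Bool.and_eq_true] at h
  obtain ⟨⟨h1, h2⟩, h3⟩ := h
  obtain ⟨hall, hint⟩ := chkRefs_soundV (V := Fct.Valid) hT refs _ h3
  have hmsup : m ∈ sup := (mask_testBit _ _).1 h1
  have hS : ∀ k, (Nat.xor (mask sup) (Nat.shiftLeft 1 m)).testBit k = true ↔
      (k ∈ sup ∧ k ≠ m) := by
    intro k
    have e : (Nat.xor (mask sup) (Nat.shiftLeft 1 m)).testBit k =
        ((mask sup).testBit k ^^ (Nat.shiftLeft 1 m).testBit k) := Nat.testBit_xor _ _ _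
    rw [e]
    by_cases hk : k = m
    · subst hk
      rw [h1, (one_shiftLeft_testBit k k).2 rfl]
      simp
    · have : (Nat.shiftLeft 1 m).testBit k = false := by
        cases hh : (Nat.shiftLeft 1 m).testBit k
        · rfl
        · exact absurd ((one_shiftLeft_testBit m k).1 hh) hk
      rw [this, Bool.xor_false, mask_testBit]
      tauto
  intro M B hM hB
  have hmfree := hB (dec m) ⟨m, hmsup, rfl⟩
  have hm : dec m ∉ M ∪ B := by
    rw [Finset.mem_union]; tauto
  refine MakerWins.step M B (dec m) hm ?_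
  intro b hb
  rw [Finset.mem_union, Finset.mem_insert, not_or, not_or] at hb
  -- find a suitable reference
  have key : ∃ r : Ref, ∃ g : Fct, g.Valid ∧ iok r g.need = true ∧
      sub (imask r g.need) (Nat.lor (Nat.shiftLeft 1 m) (mask need)) = true ∧
      iok r g.sup = true ∧
      sub (imask r g.sup) (Nat.xor (mask sup) (Nat.shiftLeft 1 m)) = true ∧
      ∀ k ∈ g.sup, dec (img r.sw r.fx r.fy r.dx r.dy k) ≠ b := by
    by_cases hbs : ∃ k, (Nat.xor (mask sup) (Nat.shiftLeft 1 m)).testBit k = true ∧ dec k = b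
    · obtain ⟨k, hk, hkb⟩ := hbs
      obtain ⟨r, _, g, a1, a2, a3, a4, a5, a6⟩ := hint k hk
      refine ⟨r, g, a1, a2, a3, a4, a5, ?_⟩
      intro j hj hjb
      have : img r.sw r.fx r.fy r.dx r.dy j = k := dec_inj (hjb.trans hkb.symm)
      have := imask_testBit (r := r) hj
      rw [‹img r.sw r.fx r.fy r.dx r.dy j = k›] at this
      rw [this] at a6
      exact Bool.noConfusion a6
    · obtain ⟨r, hr⟩ := isCons_exists h2
      obtain ⟨g, a1, a2, a3, a4, a5⟩ := hall r hr
      refine ⟨r, g, a1, a2, a3, a4, a5, ?_⟩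
      intro j hj hjb
      exact hbs ⟨_, sub_testBit a5 (imask_testBit (r := r) hj), hjb⟩
  obtain ⟨r, g, hv, k1, k2, k3, k4, k5⟩ := key
  have hw := Win.map (good_g r.sw r.fx r.fy ((r.dx : ℤ), (r.dy : ℤ))) hv
  refine hw _ _ ?_ ?_
  · rintro c ⟨c', ⟨k, hk, rfl⟩, rfl⟩
    have e := dec_img (iok_mem k1 hk)
    rw [← e]
    have hb' : ((Nat.shiftLeft 1 m) ||| mask need).testBit
        (img r.sw r.fx r.fy r.dx r.dy k) = true := sub_testBit k2 (imask_testBit (r := r) hk)
    rw [Nat.testBit_or, Bool.or_eq_true, one_shiftLeft_testBit, mask_testBit] at hb'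
    rw [Finset.mem_insert]
    rcases hb' with hb' | hb'
    · left; rw [hb']
    · right; exact hM _ ⟨_, hb', rfl⟩
  · rintro c ⟨c', ⟨k, hk, rfl⟩, rfl⟩
    have e := dec_img (iok_mem k3 hk)
    rw [← e]
    have hbit := sub_testBit k4 (imask_testBit (r := r) hk)
    obtain ⟨q1, q2⟩ := (hS _).1 hbit
    obtain ⟨f1, f2⟩ := hB _ ⟨_, q1, rfl⟩
    have f3 : dec (img r.sw r.fx r.fy r.dx r.dy k) ≠ dec m := fun hh => q2 (dec_inj hh)
    have f4 := k5 k hk
    rw [Finset.mem_insert, Finset.mem_insert]
    tauto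

end Vale.Agent.P062
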