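import Mathlib

/-!
The (weak) achievement game for the hexomino Snaky on the square grid.
-/

namespace Vale.Agent.P062

/-- A cell of the square grid, indexed by its lower-left corner. -/
abbrev Cell := ℤ × ℤ

/-- The hexomino Snaky. -/
def snaky : Finset Cell := {(0, 0), (1, 0), (2, 0), (3, 0), (3, 1), (4, 1)}

/-- The linear maps of the plane given by the eight signed permutation matrices. -/
def IsSignedPerm (R : Cell → Cell) : Prop :=
  ∃ s t : ℤ, (s = 1 ∨ s = -1) ∧ (t = 1 ∨ t = -1) ∧
    ((∀ c, R c = (s * c.1, t * c.2)) ∨ (∀ c, R c = (s * c.2, t * c.1)))

/-- An allowed copy of Snaky: a translate of the image of Snaky under one of the eight signed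
permutation matrices. -/
def IsCopy (C : Finset Cell) : Prop :=
  ∃ R : Cell → Cell, IsSignedPerm R ∧ ∃ t : Cell, C = snaky.image (fun c => t + R c)

/-- `MakerWins M B`: in the position in which Maker owns the cells of `M`, Breaker owns the
cells of `B` and it is Maker's turn, Maker can force the possession of an allowed copy after
finitely many turns.  Maker claims an unclaimed cell `m`; either an allowed copy is completed,
or Maker still wins after every legal answer `b` of Breaker. -/
inductive MakerWins : Finset Cell → Finset Cell → Prop
  | complete (M B : Finset Cell) (m : Cell) (hm : m ∉ M ∪ B) (C : Finset Cell)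
      (hC : IsCopy C) (h : C ⊆ insert m M) : MakerWins M B
  | step (M B : Finset Cell) (m : Cell) (hm : m ∉ M ∪ B)
      (h : ∀ b : Cell, b ∉ insert m M ∪ B → MakerWins (insert m M) (insert b B)) :
      MakerWins M B

end Vale.Agent.P062
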