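import Vale.Agent.P062.Strat

namespace Vale.Agent.P062

open Classical in
/-- the winning cell with the fewest turns to go -/
noncomputable def pick (S : Set Cell) (M B : Finset Cell) : Cell :=
  if h : ∃ n, WinsIn S (n + 1) M B then Classical.choose (Nat.find_spec h) else (0, 0)

open Classical in
theorem pick_spec {S : Set Cell} {M B : Finset Cell} {n : ℕ} (h : WinsIn S n M B) :
    pick S M B ∈ S ∧ pick S M B ∉ M ∪ B ∧
      ((∃ C, IsCopy C ∧ C ⊆ insert (pick S M B) M) ∨
        ∀ b, b ∉ insert (pick S M B) M ∪ B →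
          WinsIn S (n - 1) (insert (pick S M B) M) (insert b B)) := by
  have h' : ∃ n, WinsIn S (n + 1) M B := by
    cases n with
    | zero => exact h.elim
    | succ n => exact ⟨n, h⟩
  have hle : Nat.find h' ≤ n - 1 := by
    cases n with
    | zero => exact h.elim
    | succ n => exact Nat.find_min' h' h
  have e : pick S M B = Classical.choose (Nat.find_spec h') := by
    unfold pick
    rw [dif_pos h']
  have hs := Classical.choose_spec (Nat.find_spec h')
  rw [← e] at hs
  refine ⟨hs.1, hs.2.1, ?_⟩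
  rcases hs.2.2 with hc | hc
  · exact Or.inl hc
  · exact Or.inr fun b hb => (hc b hb).mono (le_refl _) hle

/-- the position reached, from the list of Breaker's cells with the latest first -/
noncomputable def pos (S : Set Cell) : List Cell → Finset Cell × Finset Cell
  | [] => (∅, ∅)
  | b :: l => (insert (pick S (pos S l).1 (pos S l).2) (pos S l).1, insert b (pos S l).2)

noncomputable def strat (S : Set Cell) : Strategy := fun l =>
  pick S (pos S l.reverse).1 (pos S l.reverse).2

noncomputable def posAt (S : Set Cell) (b : ℕ → Cell) (k : ℕ) : Finset Cell × Finset Cell :=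
  pos S ((List.range k).map b).reverse

theorem makerCell_strat (S : Set Cell) (b : ℕ → Cell) (k : ℕ) :
    makerCell (strat S) b k = pick S (posAt S b k).1 (posAt S b k).2 := rfl

theorem posAt_succ (S : Set Cell) (b : ℕ → Cell) (k : ℕ) :
    posAt S b (k + 1) =
      (insert (makerCell (strat S) b k) (posAt S b k).1, insert (b k) (posAt S b k).2) := by
  unfold posAt
  rw [List.range_succ, List.map_append, List.reverse_append]
  simp only [List.map_cons, List.map_nil, List.reverse_cons, List.reverse_nil, List.nil_append,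
    List.cons_append]
  rfl

theorem posAt_fst (S : Set Cell) (b : ℕ → Cell) (k : ℕ) (c : Cell) :
    c ∈ (posAt S b k).1 ↔ ∃ j < k, c = makerCell (strat S) b j := by
  induction k with
  | zero => simp [posAt, pos]
  | succ k ih =>
    rw [posAt_succ, Finset.mem_insert, ih]
    constructor
    · rintro (h | ⟨j, hj, h⟩)
      · exact ⟨k, by omega, h⟩
      · exact ⟨j, by omega, h⟩
    · rintro ⟨j, hj, h⟩
      rcases Nat.lt_succ_iff_lt_or_eq.1 hj with h1 | rfl
      · exact Or.inr ⟨j, h1, h⟩
      · exact Or.inl h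

theorem posAt_snd (S : Set Cell) (b : ℕ → Cell) (k : ℕ) (c : Cell) :
    c ∈ (posAt S b k).2 ↔ ∃ j < k, c = b j := by
  induction k with
  | zero => simp [posAt, pos]
  | succ k ih =>
    rw [posAt_succ, Finset.mem_insert, ih]
    constructor
    · rintro (h | ⟨j, hj, h⟩)
      · exact ⟨k, by omega, h⟩
      · exact ⟨j, by omega, h⟩
    · rintro ⟨j, hj, h⟩
      rcases Nat.lt_succ_iff_lt_or_eq.1 hj with h1 | rfl
      · exact Or.inr ⟨j, h1, h⟩
      · exact Or.inl h

theorem claimed_iff (S : Set Cell) (b : ℕ → Cell) (k : ℕ) (c : Cell) :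
    ClaimedBefore (strat S) b k c ↔ c ∈ (posAt S b k).1 ∪ (posAt S b k).2 := by
  rw [Finset.mem_union, posAt_fst, posAt_snd]
  unfold ClaimedBefore
  constructor
  · rintro ⟨j, hj, h | h⟩
    · exact Or.inl ⟨j, hj, h⟩
    · exact Or.inr ⟨j, hj, h⟩
  · rintro (⟨j, hj, h⟩ | ⟨j, hj, h⟩)
    · exact ⟨j, hj, Or.inl h⟩
    · exact ⟨j, hj, Or.inr h⟩

theorem invariant {S : Set Cell} {n : ℕ} (h : WinsIn S n ∅ ∅) (b : ℕ → Cell) (k : ℕ)
    (hl : BreakerLegal (strat S) b k) (hc : ∀ j < k, ¬ MakerHasCopy (strat S) b j) :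
    WinsIn S (n - k) (posAt S b k).1 (posAt S b k).2 := by
  induction k with
  | zero => exact h
  | succ k ih =>
    have ih' := ih (fun j hj => hl j (by omega)) (fun j hj => hc j (by omega))
    obtain ⟨_, _, h3⟩ := pick_spec ih'
    rw [← makerCell_strat] at h3
    rw [posAt_succ]
    rcases h3 with ⟨C, hC, hCs⟩ | h3
    · exfalso
      apply hc k (by omega)
      refine ⟨C, hC, fun c hcC => ?_⟩
      have := hCs hcC
      rw [Finset.mem_insert, posAt_fst] at this
      rcases this with h | ⟨j, hj, h⟩
      · exact ⟨k, le_rfl, h⟩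
      · exact ⟨j, by omega, h⟩
    · have := h3 (b k) ?_
      · exact this.mono (le_refl _) (by omega)
      · obtain ⟨l1, l2⟩ := hl k (by omega)
        rw [claimed_iff, Finset.mem_union, not_or] at l1
        rw [Finset.mem_union, Finset.mem_insert, not_or, not_or]
        exact ⟨⟨l2, l1.1⟩, l1.2⟩

/-- a strategy whose moves are always new cells of a finite set with at most `N` elements (until
she wins) wins within `N` turns -/
theorem winsWithin_of_card {σ : Strategy} {Q : Set Cell} (F : Finset Cell)
    (hF : ∀ c ∈ Q, c ∈ F)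
    (h : ∀ b : ℕ → Cell, ∀ k, BreakerLegal σ b k → (∀ j < k, ¬ MakerHasCopy σ b j) →
      makerCell σ b k ∈ Q ∧ ¬ ClaimedBefore σ b k (makerCell σ b k)) :
    WinsWithin σ Q F.card := by
  intro b
  refine ⟨h b, fun hl => ?_⟩
  by_contra hno
  push Not at hno
  have key : ∀ k ∈ Finset.range (F.card + 1),
      makerCell σ b k ∈ Q ∧ ¬ ClaimedBefore σ b k (makerCell σ b k) := by
    intro k hk
    rw [Finset.mem_range] at hk
    exact h b k (fun j hj => hl j (by omega)) (fun j hj => hno j (by omega))
  have hcard : (Finset.range (F.card + 1)).card ≤ F.card := by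
    refine Finset.card_le_card_of_injOn (makerCell σ b) (fun k hk => hF _ (key k hk).1) ?_
    intro i hi j hj hij
    by_contra hne
    rcases Nat.lt_or_gt_of_ne hne with hlt | hlt
    · exact (key j hj).2 ⟨i, hlt, Or.inl hij.symm⟩
    · exact (key i hi).2 ⟨j, hlt, Or.inl hij⟩
  rw [Finset.card_range] at hcard
  omega

theorem winsWithin_of_winsIn {S Q : Set Cell} (hSQ : S ⊆ Q) (F : Finset Cell)
    (hF : ∀ c ∈ Q, c ∈ F) {n : ℕ} (h : WinsIn S n ∅ ∅) : WinsWithin (strat S) Q F.card := by
  refine winsWithin_of_card F hF ?_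
  intro b k hl hc
  have hw := invariant h b k hl hc
  obtain ⟨h1, h2, _⟩ := pick_spec hw
  rw [← makerCell_strat] at h1 h2
  refine ⟨hSQ h1, ?_⟩
  rw [claimed_iff]
  exact h2

end Vale.Agent.P062
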