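import Vale.Agent.P062.Cert.All

namespace Vale.Agent.P062

theorem last_need : (getF tbl 6700).map Fct.need = some [] := by decide +kernel

theorem makerWins_empty : MakerWins ∅ ∅ := by
  have h := last_need
  cases hf : getF tbl 6700 with
  | none => rw [hf] at h; simp at h
  | some f =>
    rw [hf] at h
    simp only [Option.map_some, Option.some.injEq] at h
    have hv := all_valid all_ok 6700 (by omega) f hf
    refine hv ∅ ∅ ?_ ?_
    · rintro c ⟨j, hj, _⟩
      rw [h] at hj
      simp at hj
    · intro c _
      simp

end Vale.Agent.P062
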