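import Vale.Agent.P062.Final
import Vale.Agent.P062.Extract

namespace Vale.Agent.P062

theorem last_sup : (getF tbl 6700).map
    (fun f => f.sup.all (fun c => Nat.ble (c % 32) 16 && Nat.ble (c / 32) 16)) = some true := by
  decide +kernel

/-- the cells of the `17 × 17` board -/
noncomputable def boardFinset : Finset Cell := Finset.Ico (0 : ℤ) 17 ×ˢ Finset.Ico (0 : ℤ) 17

theorem boardFinset_card : boardFinset.card = 289 := by
  simp [boardFinset]

theorem mem_boardFinset (c : Cell) (hc : c ∈ board 17) : c ∈ boardFinset := by
  obtain ⟨h1, h2, h3, h4⟩ := hc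
  simp only [boardFinset, Finset.mem_product, Finset.mem_Ico]
  push_cast at h2 h4
  exact ⟨⟨h1, h2⟩, h3, h4⟩

theorem exists_strategy : ∃ σ : Strategy, WinsWithin σ (board 17) 289 := by
  have h := last_need
  have h' := last_sup
  cases hf : getF tbl 6700 with
  | none => rw [hf] at h; simp at h
  | some f =>
    rw [hf] at h h'
    simp only [Option.map_some, Option.some.injEq] at h h'
    have hv := all_validN all_ok 6700 (by omega) f hf
    have hw := hv ∅ ∅ ?_ ?_
    · have hsub : {c | (fun c => ∃ k ∈ f.sup, dec k = c) c} ⊆ board 17 := by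
        rintro c ⟨k, hk, rfl⟩
        rw [List.all_eq_true] at h'
        have := h' k hk
        simp only [Bool.and_eq_true, Nat.ble_eq] at this
        obtain ⟨a1, a2⟩ := this
        refine ⟨?_, ?_, ?_, ?_⟩ <;> simp only [dec] <;> push_cast <;> omega
      have := winsWithin_of_winsIn hsub boardFinset mem_boardFinset hw
      rw [boardFinset_card] at this
      exact ⟨_, this⟩
    · rintro c ⟨j, hj, _⟩
      rw [h] at hj
      simp at hj
    · intro c _
      simp

end Vale.Agent.P062
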