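import Vale.Agent.P062.Defs

/-!
Plays of the achievement game for Snaky, written with explicit strategies.
-/

namespace Vale.Agent.P062

/-- A strategy of Maker: it is told the cells which Breaker has claimed so far, in order, and
returns the next cell of Maker. -/
abbrev Strategy := List Cell → Cell

/-- The cell which Maker claims in turn `k` (`k = 0, 1, 2, …`) when she follows `σ` and Breaker
claims `b 0, b 1, …`. -/
def makerCell (σ : Strategy) (b : ℕ → Cell) (k : ℕ) : Cell := σ ((List.range k).map b)

/-- The cell `c` has been claimed by Maker or by Breaker before turn `k`. -/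
def ClaimedBefore (σ : Strategy) (b : ℕ → Cell) (k : ℕ) (c : Cell) : Prop :=
  ∃ j < k, c = makerCell σ b j ∨ c = b j

/-- The answers of Breaker in the turns `0, …, k - 1` are legal: each of these cells is
unclaimed when Breaker claims it (just after Maker's claim of the same turn). -/
def BreakerLegal (σ : Strategy) (b : ℕ → Cell) (k : ℕ) : Prop :=
  ∀ j < k, ¬ ClaimedBefore σ b j (b j) ∧ b j ≠ makerCell σ b j

/-- After her claim of turn `k`, Maker owns every cell of some allowed copy of Snaky. -/
def MakerHasCopy (σ : Strategy) (b : ℕ → Cell) (k : ℕ) : Prop :=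
  ∃ C : Finset Cell, IsCopy C ∧ ∀ c ∈ C, ∃ j ≤ k, c = makerCell σ b j

/-- `σ` wins within `N` turns using only cells of the set `Q`: whatever sequence `b` Breaker
plays, as long as his answers are legal and Maker does not yet own a copy, the next cell given by
`σ` is an unclaimed cell of `Q`; and if Breaker's first `N` answers are legal, then Maker owns a
copy after at most `N` claims. -/
def WinsWithin (σ : Strategy) (Q : Set Cell) (N : ℕ) : Prop :=
  ∀ b : ℕ → Cell,
    (∀ k, BreakerLegal σ b k → (∀ j < k, ¬ MakerHasCopy σ b j) →
      makerCell σ b k ∈ Q ∧ ¬ ClaimedBefore σ b k (makerCell σ b k)) ∧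
    (BreakerLegal σ b N → ∃ k < N, MakerHasCopy σ b k)

/-- The `n × n` board. -/
def board (n : ℕ) : Set Cell := {c | 0 ≤ c.1 ∧ c.1 < n ∧ 0 ≤ c.2 ∧ c.2 < n}

end Vale.Agent.P062
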