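import Vale.Agent.P062.Check

namespace Vale.Agent.P062

/-- A table of encoded facts. -/
inductive Tb
  | nil : Tb
  | leaf (a s b : ℕ) : Tb
  | node (l r : Tb) : Tb

def Tb.find : Tb → ℕ → Tb
  | .nil, _ => .nil
  | .leaf a s b, _ => .leaf a s b
  | .node l r, k => cond (Nat.beq (k % 2) 1) (r.find (k / 2)) (l.find (k / 2))

def cells : ℕ → ℕ → List ℕ
  | 0, _ => []
  | fuel + 1, n => cond (Nat.beq n 0) [] ((n % 1024 - 1) :: cells fuel (n / 1024))

def mkRef (v : ℕ) : Ref :=
  { f := v / 32768
    sw := Nat.beq (v % 2) 1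
    fx := Nat.beq (v / 2 % 2) 1
    fy := Nat.beq (v / 4 % 2) 1
    dx := v / 8 % 64
    dy := v / 512 % 64 }

def refs : ℕ → ℕ → List Ref
  | 0, _ => []
  | fuel + 1, n =>
    cond (Nat.beq n 0) [] (mkRef (n % 1099511627776 - 1) :: refs fuel (n / 1099511627776))

def getF (T : Tb) (k : ℕ) : Option Fct :=
  match T.find k with
  | .leaf a s _ => some ⟨cells 1024 a, cells 1024 s⟩
  | _ => none

def below (T : Tb) (i : ℕ) (k : ℕ) : Option Fct := cond (Nat.blt k i) (getF T k) none

/-- check of one fact: `b = m + 1024 * (lf + 2 * refs)` -/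
def chkOne (T : Tb) (i : ℕ) : Bool :=
  match T.find i with
  | .leaf a s b =>
    cond (Nat.beq (b / 1024 % 2) 1)
      (match cells 1024 s with
        | [m] => chkLeaf (cells 1024 a) m (mkRef (b / 2048 - 1))
        | _ => false)
      (chkNode (below T i) (cells 1024 a) (cells 1024 s) (b % 1024) (refs 4096 (b / 2048)))
  | _ => true

def chkRange (T : Tb) : ℕ → ℕ → Bool
  | 0, _ => true
  | n + 1, i => chkOne T i && chkRange T n (i + 1)

theorem chkOne_cases {T : Tb} {i a s b : ℕ} (hT : T.find i = .leaf a s b)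
    (h : chkOne T i = true) :
    (∃ m r, cells 1024 s = [m] ∧ chkLeaf (cells 1024 a) m r = true) ∨
      ∃ m rs, chkNode (below T i) (cells 1024 a) (cells 1024 s) m rs = true := by
  unfold chkOne at h
  rw [hT] at h
  simp only at h
  cases hb : Nat.beq (b / 1024 % 2) 1
  · rw [hb] at h
    exact Or.inr ⟨_, _, h⟩
  · rw [hb] at h
    simp only [cond_true] at h
    split at h
    · rename_i m hm
      exact Or.inl ⟨m, _, hm, h⟩
    · exact absurd h (by simp)

theorem getF_eq_some {T : Tb} {i : ℕ} {f : Fct} (hf : getF T i = some f) :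
    ∃ a s b, T.find i = .leaf a s b ∧ f = ⟨cells 1024 a, cells 1024 s⟩ := by
  unfold getF at hf
  cases hT : T.find i with
  | nil => rw [hT] at hf; simp at hf
  | node l r => rw [hT] at hf; simp at hf
  | leaf a s b =>
    rw [hT] at hf
    simp only [Option.some.injEq] at hf
    exact ⟨a, s, b, rfl, hf.symm⟩

theorem chkOne_sound {T : Tb} {i : ℕ} (hG : GOk (below T i)) (h : chkOne T i = true) :
    ∀ f, getF T i = some f → f.Valid := by
  intro f hf
  obtain ⟨a, s, b, hT, rfl⟩ := getF_eq_some hf
  rcases chkOne_cases hT h with ⟨m, r, hm, hl⟩ | ⟨m, rs, hn⟩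
  · rw [hm]
    exact chkLeaf_sound hl
  · exact chkNode_sound hG hn

theorem chkRange_sound {T : Tb} : ∀ (n i : ℕ), chkRange T n i = true →
    ∀ k, i ≤ k → k < i + n → chkOne T k = true := by
  intro n
  induction n with
  | zero => intro i _ k h1 h2; omega
  | succ n ih =>
    intro i h k h1 h2
    simp only [chkRange, Bool.and_eq_true] at h
    rcases Nat.eq_or_lt_of_le h1 with rfl | h3
    · exact h.1
    · exact ih (i + 1) h.2 k h3 (by omega)

theorem all_valid {T : Tb} {n : ℕ} (h : ∀ k < n, chkOne T k = true) :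
    ∀ k < n, ∀ f, getF T k = some f → f.Valid := by
  intro k
  induction k using Nat.strong_induction_on with
  | _ k ih =>
    intro hk
    refine chkOne_sound ?_ (h k hk)
    intro j f hj
    unfold below at hj
    cases hjk : Nat.blt j k
    · rw [hjk] at hj; simp at hj
    · rw [hjk] at hj
      have : j < k := by
        rw [Nat.blt_eq] at hjk
        exact hjk
      exact ih j this (by omega) f hj

/-- if the last fact needs nothing, Maker wins from the empty board -/
theorem wins_of_empty {T : Tb} {n : ℕ} (h : ∀ k < n, chkOne T k = true) {k : ℕ} (hk : k < n)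
    {s : List ℕ} (hf : getF T k = some ⟨[], s⟩) : MakerWins ∅ ∅ := by
  refine all_valid h k hk _ hf ∅ ∅ ?_ ?_
  · rintro c ⟨j, hj, _⟩
    simp at hj
  · intro c _
    simp

end Vale.Agent.P062
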