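import Vale.Agent.P062.Run
import Vale.Agent.P062.GameDefs

namespace Vale.Agent.P062

/-- Maker, to move, wins within `n` turns using only cells of `S`. -/
def WinsIn (S : Set Cell) : ℕ → Finset Cell → Finset Cell → Prop
  | 0, _, _ => False
  | n + 1, M, B => ∃ m ∈ S, m ∉ M ∪ B ∧
      ((∃ C, IsCopy C ∧ C ⊆ insert m M) ∨
        ∀ b, b ∉ insert m M ∪ B → WinsIn S n (insert m M) (insert b B))

theorem WinsIn.mono {S S' : Set Cell} (hS : S ⊆ S') {n n' : ℕ} (hn : n ≤ n')
    {M B : Finset Cell} (h : WinsIn S n M B) : WinsIn S' n' M B := by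
  induction n generalizing n' M B with
  | zero => exact h.elim
  | succ n ih =>
    obtain ⟨k, rfl⟩ : ∃ k, n' = k + 1 := ⟨n' - 1, by omega⟩
    obtain ⟨m, hmS, hm, hw⟩ := h
    refine ⟨m, hS hmS, hm, ?_⟩
    rcases hw with hw | hw
    · exact Or.inl hw
    · exact Or.inr fun b hb => ih (by omega) (hw b hb)

theorem WinsIn.map {g : Cell → Cell} (hg : Good g) {S : Set Cell} {n : ℕ} {M B : Finset Cell}
    (h : WinsIn S n M B) : WinsIn (g '' S) n (M.image g) (B.image g) := by
  induction n generalizing M B with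
  | zero => exact h.elim
  | succ n ih =>
    obtain ⟨m, hmS, hm, hw⟩ := h
    refine ⟨g m, ⟨m, hmS, rfl⟩, ?_, ?_⟩
    · rw [← Finset.image_union, hg.inj.mem_finset_image]
      exact hm
    · rcases hw with ⟨C, hC, hCM⟩ | hw
      · refine Or.inl ⟨C.image g, hg.copy hC, ?_⟩
        rw [← Finset.image_insert]
        exact Finset.image_subset_image hCM
      · refine Or.inr fun b hb => ?_
        obtain ⟨h', _, _, hgh⟩ := hg.exists_inv
        have hb2 : h' b ∉ insert m M ∪ B := by
          intro hmem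
          apply hb
          rw [← hgh b, ← Finset.image_insert, ← Finset.image_union]
          exact Finset.mem_image_of_mem g hmem
        have := ih (hw (h' b) hb2)
        rw [Finset.image_insert, Finset.image_insert, hgh] at this
        exact this

/-- Maker, to move, wins within `n` turns inside `sup` every position in which she owns `need`
and `sup` is free. -/
def WinN (n : ℕ) (need sup : Cell → Prop) : Prop :=
  ∀ M B : Finset Cell, (∀ c, need c → c ∈ M) → (∀ c, sup c → c ∉ M ∧ c ∉ B) →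
    WinsIn {c | sup c} n M B

theorem WinN.map {g : Cell → Cell} (hg : Good g) {n : ℕ} {need sup : Cell → Prop}
    (h : WinN n need sup) :
    WinN n (fun c => ∃ c', need c' ∧ g c' = c) (fun c => ∃ c', sup c' ∧ g c' = c) := by
  intro M B hM hB
  obtain ⟨h', hh', hhg, hgh⟩ := hg.exists_inv
  have key : WinsIn {c | sup c} n (M.image h') (B.image h') := by
    refine h _ _ ?_ ?_
    · intro c hc
      rw [Finset.mem_image]
      exact ⟨g c, hM _ ⟨c, hc, rfl⟩, hhg c⟩
    · intro c hc
      obtain ⟨h1, h2⟩ := hB _ ⟨c, hc, rfl⟩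
      constructor
      · rw [Finset.mem_image]
        rintro ⟨a, ha, hac⟩
        apply h1
        rw [← hac, hgh]
        exact ha
      · rw [Finset.mem_image]
        rintro ⟨a, ha, hac⟩
        apply h2
        rw [← hac, hgh]
        exact ha
  have := key.map hg
  rw [Finset.image_image, Finset.image_image] at this
  have hid : g ∘ h' = id := by funext c; exact hgh c
  rw [hid, Finset.image_id, Finset.image_id] at this
  refine this.mono ?_ le_rfl
  rintro c ⟨c', hc', rfl⟩
  exact ⟨c', hc', rfl⟩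

def Fct.ValidN (n : ℕ) (f : Fct) : Prop :=
  WinN n (fun c => ∃ k ∈ f.need, dec k = c) (fun c => ∃ k ∈ f.sup, dec k = c)

theorem chkLeaf_soundN {need : List ℕ} {m : ℕ} {r : Ref} (h : chkLeaf need m r = true) (n : ℕ) :
    Fct.ValidN (n + 1) ⟨need, [m]⟩ := by
  simp only [chkLeaf, Bool.and_eq_true] at h
  obtain ⟨h1, h2⟩ := h
  intro M B hM hB
  have hm : dec m ∉ M ∪ B := by
    have := hB (dec m) ⟨m, by simp, rfl⟩
    rw [Finset.mem_union]
    tauto
  refine ⟨dec m, ⟨m, by simp, rfl⟩, hm, Or.inl ⟨snaky.image r.g, ?_, ?_⟩⟩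
  · refine (good_g r.sw r.fx r.fy _).copy ?_
    refine ⟨id, ⟨1, 1, Or.inl rfl, Or.inl rfl, Or.inl fun c => by simp⟩, (0, 0), ?_⟩
    have : (fun c : Cell => ((0, 0) : Cell) + id c) = id := by funext c; ext <;> simp
    rw [this, Finset.image_id]
  · intro c hc
    rw [Finset.mem_image] at hc
    obtain ⟨c', hc', rfl⟩ := hc
    have hex : ∃ k ∈ snakyCodes, dec k = c' := by
      simp only [snaky, Finset.mem_insert, Finset.mem_singleton] at hc'
      rcases hc' with rfl | rfl | rfl | rfl | rfl | rfl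
      · exact ⟨0, by simp [snakyCodes], rfl⟩
      · exact ⟨1, by simp [snakyCodes], rfl⟩
      · exact ⟨2, by simp [snakyCodes], rfl⟩
      · exact ⟨3, by simp [snakyCodes], rfl⟩
      · exact ⟨35, by simp [snakyCodes], rfl⟩
      · exact ⟨36, by simp [snakyCodes], rfl⟩
    obtain ⟨k, hk, rfl⟩ := hex
    have e := dec_img (iok_mem h1 hk)
    have hb := sub_testBit h2 (imask_testBit (r := r) hk)
    rw [show r.g (dec k) = dec (img r.sw r.fx r.fy r.dx r.dy k) from e.symm]
    have hb' : ((Nat.shiftLeft 1 m) ||| mask need).testBit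
        (img r.sw r.fx r.fy r.dx r.dy k) = true := hb
    rw [Nat.testBit_or, Bool.or_eq_true, one_shiftLeft_testBit, mask_testBit] at hb'
    rw [Finset.mem_insert]
    rcases hb' with hb' | hb'
    · left; rw [hb']
    · right; exact hM _ ⟨_, hb', rfl⟩

def GOkN (n : ℕ) (G : ℕ → Option Fct) : Prop := ∀ k f, G k = some f → f.ValidN n

theorem chkNode_soundN {n : ℕ} {G : ℕ → Option Fct} (hT : GOkN n G) {need sup : List ℕ} {m : ℕ}
    {refs : List Ref} (h : chkNode G need sup m refs = true) :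
    Fct.ValidN (n + 1) ⟨need, sup⟩ := by
  simp only [chkNode, Bool.and_eq_true] at h
  obtain ⟨⟨h1, h2⟩, h3⟩ := h
  obtain ⟨hall, hint⟩ := chkRefs_soundV (V := Fct.ValidN n) hT refs _ h3
  have hmsup : m ∈ sup := (mask_testBit _ _).1 h1
  have hS : ∀ k, (Nat.xor (mask sup) (Nat.shiftLeft 1 m)).testBit k = true ↔
      (k ∈ sup ∧ k ≠ m) := by
    intro k
    have e : (Nat.xor (mask sup) (Nat.shiftLeft 1 m)).testBit k =
        ((mask sup).testBit k ^^ (Nat.shiftLeft 1 m).testBit k) := Nat.testBit_xor _ _ _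
    rw [e]
    by_cases hk : k = m
    · subst hk
      rw [h1, (one_shiftLeft_testBit k k).2 rfl]
      simp
    · have : (Nat.shiftLeft 1 m).testBit k = false := by
        cases hh : (Nat.shiftLeft 1 m).testBit k
        · rfl
        · exact absurd ((one_shiftLeft_testBit m k).1 hh) hk
      rw [this, Bool.xor_false, mask_testBit]
      tauto
  intro M B hM hB
  have hmfree := hB (dec m) ⟨m, hmsup, rfl⟩
  have hm : dec m ∉ M ∪ B := by
    rw [Finset.mem_union]; tauto
  refine ⟨dec m, ⟨m, hmsup, rfl⟩, hm, Or.inr ?_⟩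
  intro b hb
  rw [Finset.mem_union, Finset.mem_insert, not_or, not_or] at hb
  -- find a suitable reference
  have key : ∃ r : Ref, ∃ g : Fct, g.ValidN n ∧ iok r g.need = true ∧
      sub (imask r g.need) (Nat.lor (Nat.shiftLeft 1 m) (mask need)) = true ∧
      iok r g.sup = true ∧
      sub (imask r g.sup) (Nat.xor (mask sup) (Nat.shiftLeft 1 m)) = true ∧
      ∀ k ∈ g.sup, dec (img r.sw r.fx r.fy r.dx r.dy k) ≠ b := by
    by_cases hbs : ∃ k, (Nat.xor (mask sup) (Nat.shiftLeft 1 m)).testBit k = true ∧ dec k = b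
    · obtain ⟨k, hk, hkb⟩ := hbs
      obtain ⟨r, _, g, a1, a2, a3, a4, a5, a6⟩ := hint k hk
      refine ⟨r, g, a1, a2, a3, a4, a5, ?_⟩
      intro j hj hjb
      have : img r.sw r.fx r.fy r.dx r.dy j = k := dec_inj (hjb.trans hkb.symm)
      have := imask_testBit (r := r) hj
      rw [‹img r.sw r.fx r.fy r.dx r.dy j = k›] at this
      rw [this] at a6
      exact Bool.noConfusion a6
    · obtain ⟨r, hr⟩ := isCons_exists h2
      obtain ⟨g, a1, a2, a3, a4, a5⟩ := hall r hr
      refine ⟨r, g, a1, a2, a3, a4, a5, ?_⟩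
      intro j hj hjb
      exact hbs ⟨_, sub_testBit a5 (imask_testBit (r := r) hj), hjb⟩
  obtain ⟨r, g, hv, k1, k2, k3, k4, k5⟩ := key
  have hw := WinN.map (good_g r.sw r.fx r.fy ((r.dx : ℤ), (r.dy : ℤ))) hv
  have himg : ∀ k ∈ g.sup, gmap r.sw (sg r.fx) (sg r.fy) ((r.dx : ℤ), (r.dy : ℤ)) (dec k) =
      dec (img r.sw r.fx r.fy r.dx r.dy k) ∧
      img r.sw r.fx r.fy r.dx r.dy k ∈ sup ∧ img r.sw r.fx r.fy r.dx r.dy k ≠ m := by
    intro k hk
    have e := dec_img (iok_mem k3 hk)
    have hbit := sub_testBit k4 (imask_testBit (r := r) hk)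
    obtain ⟨q1, q2⟩ := (hS _).1 hbit
    exact ⟨e.symm, q1, q2⟩
  have hmain := hw (insert (dec m) M) (insert b B) ?_ ?_
  · refine hmain.mono ?_ le_rfl
    rintro c ⟨c', ⟨k, hk, rfl⟩, rfl⟩
    obtain ⟨e, q1, _⟩ := himg k hk
    exact ⟨_, q1, e.symm⟩
  · rintro c ⟨c', ⟨k, hk, rfl⟩, rfl⟩
    have e := dec_img (iok_mem k1 hk)
    rw [← e]
    have hb' : ((Nat.shiftLeft 1 m) ||| mask need).testBit
        (img r.sw r.fx r.fy r.dx r.dy k) = true := sub_testBit k2 (imask_testBit (r := r) hk)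
    rw [Nat.testBit_or, Bool.or_eq_true, one_shiftLeft_testBit, mask_testBit] at hb'
    rw [Finset.mem_insert]
    rcases hb' with hb' | hb'
    · left; rw [hb']
    · right; exact hM _ ⟨_, hb', rfl⟩
  · rintro c ⟨c', ⟨k, hk, rfl⟩, rfl⟩
    obtain ⟨e, q1, q2⟩ := himg k hk
    rw [e]
    obtain ⟨f1, f2⟩ := hB _ ⟨_, q1, rfl⟩
    have f3 : dec (img r.sw r.fx r.fy r.dx r.dy k) ≠ dec m := fun hh => q2 (dec_inj hh)
    have f4 := k5 k hk
    rw [Finset.mem_insert, Finset.mem_insert]
    tauto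

theorem chkOne_soundN {n : ℕ} {T : Tb} {i : ℕ} (hG : GOkN n (below T i))
    (h : chkOne T i = true) : ∀ f, getF T i = some f → f.ValidN (n + 1) := by
  intro f hf
  obtain ⟨a, s, b, hT, rfl⟩ := getF_eq_some hf
  rcases chkOne_cases hT h with ⟨m, r, hm, hl⟩ | ⟨m, rs, hn⟩
  · rw [hm]
    exact chkLeaf_soundN hl n
  · exact chkNode_soundN hG hn

theorem Fct.ValidN.mono {n n' : ℕ} (h : n ≤ n') {f : Fct} (hf : f.ValidN n) : f.ValidN n' :=
  fun M B hM hB => (hf M B hM hB).mono (fun _ hc => hc) h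

theorem all_validN {T : Tb} {n : ℕ} (h : ∀ k < n, chkOne T k = true) :
    ∀ k < n, ∀ f, getF T k = some f → f.ValidN (k + 1) := by
  intro k
  induction k using Nat.strong_induction_on with
  | _ k ih =>
    intro hk
    refine chkOne_soundN ?_ (h k hk)
    intro j f hj
    unfold below at hj
    cases hjk : Nat.blt j k
    · rw [hjk] at hj; simp at hj
    · rw [hjk] at hj
      have : j < k := by
        rw [Nat.blt_eq] at hjk
        exact hjk
      exact (ih j this (by omega) f hj).mono (by omega)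

end Vale.Agent.P062
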