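import Vale.Agent.P062.Defs

namespace Vale.Agent.P062

/-- The symmetry with swap flag `sw`, signs `s`, `t` and shift `d`. -/
def gmap (sw : Bool) (s t : ℤ) (d : Cell) (c : Cell) : Cell :=
  if sw then (d.1 + s * c.2, d.2 + t * c.1) else (d.1 + s * c.1, d.2 + t * c.2)

def Good (g : Cell → Cell) : Prop :=
  ∃ (sw : Bool) (s t : ℤ) (d : Cell), (s = 1 ∨ s = -1) ∧ (t = 1 ∨ t = -1) ∧ g = gmap sw s t d

theorem Good.inj {g : Cell → Cell} (hg : Good g) : Function.Injective g := by
  obtain ⟨sw, s, t, d, hs, ht, rfl⟩ := hg
  rintro ⟨a, b⟩ ⟨a', b'⟩ h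
  cases sw <;> rcases hs with rfl | rfl <;> rcases ht with rfl | rfl <;>
    simp [gmap] at h ⊢ <;> omega

theorem Good.copy {g : Cell → Cell} (hg : Good g) {C : Finset Cell} (hC : IsCopy C) :
    IsCopy (C.image g) := by
  obtain ⟨sw, s, t, d, hs, ht, rfl⟩ := hg
  obtain ⟨R, ⟨s', t', hs', ht', hR⟩, u, rfl⟩ := hC
  cases sw
  · refine ⟨fun c => (s * (R c).1, t * (R c).2), ?_, (d.1 + s * u.1, d.2 + t * u.2), ?_⟩
    · rcases hR with hR | hR
      · refine ⟨s * s', t * t', ?_, ?_, Or.inl fun c => ?_⟩
        · rcases hs with rfl | rfl <;> rcases hs' with rfl | rfl <;> simp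
        · rcases ht with rfl | rfl <;> rcases ht' with rfl | rfl <;> simp
        · simp [hR, mul_assoc]
      · refine ⟨s * s', t * t', ?_, ?_, Or.inr fun c => ?_⟩
        · rcases hs with rfl | rfl <;> rcases hs' with rfl | rfl <;> simp
        · rcases ht with rfl | rfl <;> rcases ht' with rfl | rfl <;> simp
        · simp [hR, mul_assoc]
    · rw [Finset.image_image]
      congr 1
      funext c
      simp only [gmap, Function.comp]
      ext <;> simp <;> ring
  · refine ⟨fun c => (s * (R c).2, t * (R c).1), ?_, (d.1 + s * u.2, d.2 + t * u.1), ?_⟩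
    · rcases hR with hR | hR
      · refine ⟨s * t', t * s', ?_, ?_, Or.inr fun c => ?_⟩
        · rcases hs with rfl | rfl <;> rcases ht' with rfl | rfl <;> simp
        · rcases ht with rfl | rfl <;> rcases hs' with rfl | rfl <;> simp
        · simp [hR, mul_assoc]
      · refine ⟨s * t', t * s', ?_, ?_, Or.inl fun c => ?_⟩
        · rcases hs with rfl | rfl <;> rcases ht' with rfl | rfl <;> simp
        · rcases ht with rfl | rfl <;> rcases hs' with rfl | rfl <;> simp
        · simp [hR, mul_assoc]
    · rw [Finset.image_image]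
      congr 1
      funext c
      simp only [gmap, Function.comp]
      ext <;> simp <;> ring

theorem Good.exists_inv {g : Cell → Cell} (hg : Good g) :
    ∃ h : Cell → Cell, Good h ∧ (∀ c, h (g c) = c) ∧ (∀ c, g (h c) = c) := by
  obtain ⟨sw, s, t, d, hs, ht, rfl⟩ := hg
  cases sw
  · refine ⟨gmap false s t (-(s * d.1), -(t * d.2)), ⟨false, s, t, _, hs, ht, rfl⟩, ?_, ?_⟩ <;>
    · rintro ⟨a, b⟩
      rcases hs with rfl | rfl <;> rcases ht with rfl | rfl <;> simp [gmap]
  · refine ⟨gmap true t s (-(t * d.2), -(s * d.1)), ⟨true, t, s, _, ht, hs, rfl⟩, ?_, ?_⟩ <;>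
    · rintro ⟨a, b⟩
      rcases hs with rfl | rfl <;> rcases ht with rfl | rfl <;> simp [gmap]

theorem MakerWins.map {g : Cell → Cell} (hg : Good g) {M B : Finset Cell}
    (h : MakerWins M B) : MakerWins (M.image g) (B.image g) := by
  induction h with
  | complete M B m hm C hC hCM =>
    refine MakerWins.complete _ _ (g m) ?_ (C.image g) (hg.copy hC) ?_
    · rw [← Finset.image_union, hg.inj.mem_finset_image]
      exact hm
    · rw [← Finset.image_insert]
      exact Finset.image_subset_image hCM
  | step M B m hm _ ih =>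
    refine MakerWins.step _ _ (g m) ?_ ?_
    · rw [← Finset.image_union, hg.inj.mem_finset_image]
      exact hm
    · intro b hb
      obtain ⟨h', _, _, hgh⟩ := hg.exists_inv
      have hb2 : h' b ∉ insert m M ∪ B := by
        intro hmem
        apply hb
        rw [← hgh b, ← Finset.image_insert, ← Finset.image_union]
        exact Finset.mem_image_of_mem g hmem
      have := ih (h' b) hb2
      rw [Finset.image_insert, Finset.image_insert, hgh] at this
      exact this

/-- `Win need sup`: Maker, to move, wins every position in which she owns the cells of `need`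
and all cells of `sup` are unclaimed. -/
def Win (need sup : Cell → Prop) : Prop :=
  ∀ M B : Finset Cell, (∀ c, need c → c ∈ M) → (∀ c, sup c → c ∉ M ∧ c ∉ B) → MakerWins M B

theorem Win.map {g : Cell → Cell} (hg : Good g) {need sup : Cell → Prop} (h : Win need sup) :
    Win (fun c => ∃ c', need c' ∧ g c' = c) (fun c => ∃ c', sup c' ∧ g c' = c) := by
  intro M B hM hB
  obtain ⟨h', hh', hhg, hgh⟩ := hg.exists_inv
  have key : MakerWins (M.image h') (B.image h') := by
    refine h _ _ ?_ ?_
    · intro c hc
      rw [Finset.mem_image]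
      exact ⟨g c, hM _ ⟨c, hc, rfl⟩, hhg c⟩
    · intro c hc
      obtain ⟨h1, h2⟩ := hB _ ⟨c, hc, rfl⟩
      constructor
      · rw [Finset.mem_image]
        rintro ⟨a, ha, hac⟩
        apply h1
        rw [← hac, hgh]
        exact ha
      · rw [Finset.mem_image]
        rintro ⟨a, ha, hac⟩
        apply h2
        rw [← hac, hgh]
        exact ha
  have := key.map hg
  rw [Finset.image_image, Finset.image_image] at this
  have hid : g ∘ h' = id := by funext c; exact hgh c
  rw [hid, Finset.image_id, Finset.image_id] at this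
  exact this

end Vale.Agent.P062
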